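import Vale.Agent.P256.H576.StateCalc
import Vale.Agent.P256.H387.LMR

/-! Positive semidefinite pencils and states: two-sided forms and Cauchy-Schwarz, rows. -/

set_option linter.all false

namespace Vale.Agent.P256.H576

open Filter Topology Matrix Vale.Agent.P256 Vale.Agent.P256.H326

variable {L X : Type*} {F : Filter L} {G : Filter X} {u : L → X → ℝ}
  {ι : Type*} [Fintype ι]

theorem fr_mulVec {M : X → Matrix ι ι ℝ} {w : L → X → ι → ℝ} (hw : ∀ i, FR (fun l x => w l x i))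
    (k : ι) : FR (fun l x => (M x *ᵥ w l x) k) := by
  show FR (fun l x => ∑ i, M x k i * w l x i)
  exact FR.sum _ fun i _ => (FR.right (fun x => M x k i)).mul (hw i)

theorem fr_dot {v w : L → X → ι → ℝ} (hv : ∀ i, FR (fun l x => v l x i))
    (hw : ∀ i, FR (fun l x => w l x i)) : FR (fun l x => v l x ⬝ᵥ w l x) := by
  show FR (fun l x => ∑ i, v l x i * w l x i)
  exact FR.sum _ fun i _ => (hv i).mul (hw i)

theorem exists_factor (M : X → Matrix ι ι ℝ) : ∃ B : X → Matrix ι ι ℝ,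
    ∀ x, (M x).PosSemidef → M x = (B x)ᵀ * B x := by
  classical
  have hc : ∀ x, ∃ B : Matrix ι ι ℝ, (M x).PosSemidef → M x = Bᵀ * B := by
    intro x
    by_cases h : (M x).PosSemidef
    · obtain ⟨B, hB⟩ := psd_factor h
      exact ⟨B, fun _ => hB⟩
    · exact ⟨0, fun h' => absurd h' h⟩
  choose B hB using hc
  exact ⟨B, hB⟩

theorem factor_form {M B : Matrix ι ι ℝ} (h : M = Bᵀ * B) (v w : ι → ℝ) :
    v ⬝ᵥ (M *ᵥ w) = ∑ k, (B *ᵥ v) k * (B *ᵥ w) k := by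
  rw [h, ← Matrix.mulVec_mulVec, Matrix.dotProduct_mulVec, Matrix.vecMul_transpose]
  rfl

/-- the form of a psd matrix function at a two-sided vector is a sum of squares -/
theorem sosF_form {M : X → Matrix ι ι ℝ} (hM : ∀ᶠ x in G, (M x).PosSemidef)
    {w : L → X → ι → ℝ} (hw : ∀ i, FR (fun l x => w l x i)) :
    SosF F G (fun l x => w l x ⬝ᵥ (M x *ᵥ w l x)) := by
  obtain ⟨B, hB⟩ := exists_factor M
  have h1 : SosF F G (fun l x => ∑ k, (B x *ᵥ w l x) k ^ 2) :=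
    SosF.sum _ fun k _ => SosF.sq (fr_mulVec hw k)
  refine h1.congr (EqF.of_eventually (fun _ => True) (fun x => (M x).PosSemidef) (by simp) hM ?_)
  intro l x _ hx
  rw [factor_form (hB x hx)]
  exact Finset.sum_congr rfl fun k _ => by ring

/-- two-sided Cauchy-Schwarz -/
theorem sosF_cs2 {M : X → Matrix ι ι ℝ} (hM : ∀ᶠ x in G, (M x).PosSemidef)
    {v w : L → X → ι → ℝ} (hv : ∀ i, FR (fun l x => v l x i))
    (hw : ∀ i, FR (fun l x => w l x i)) :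
    SosF F G (fun l x => (v l x ⬝ᵥ (M x *ᵥ v l x)) * (w l x ⬝ᵥ (M x *ᵥ w l x)) -
      (v l x ⬝ᵥ (M x *ᵥ w l x)) ^ 2) := by
  obtain ⟨B, hB⟩ := exists_factor M
  have h1 : SosF F G (fun l x => ∑ k, ∑ k', 1 / 2 *
      ((B x *ᵥ v l x) k * (B x *ᵥ w l x) k' - (B x *ᵥ v l x) k' * (B x *ᵥ w l x) k) ^ 2) := by
    refine SosF.sum _ fun k _ => SosF.sum _ fun k' _ => SosF.smul (by norm_num) (SosF.sq ?_)
    exact ((fr_mulVec hv k).mul (fr_mulVec hw k')).sub ((fr_mulVec hv k').mul (fr_mulVec hw k))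
  refine h1.congr (EqF.of_eventually (fun _ => True) (fun x => (M x).PosSemidef) (by simp) hM ?_)
  intro l x _ hx
  rw [factor_form (hB x hx), factor_form (hB x hx), factor_form (hB x hx)]
  set a : ι → ℝ := B x *ᵥ v l x
  set b : ι → ℝ := B x *ᵥ w l x
  have h3 : ∀ k k', 1 / 2 * (a k * b k' - a k' * b k) ^ 2 =
      1 / 2 * (a k * a k) * (b k' * b k') + 1 / 2 * (b k * b k) * (a k' * a k') -
        (a k * b k) * (a k' * b k') := fun k k' => by ring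
  simp only [h3, Finset.sum_sub_distrib, Finset.sum_add_distrib, ← Finset.mul_sum,
    ← Finset.sum_mul]
  ring

/-- **row inequality**: `⟨v,Mξ⟩² ≤ C ⟨ξ,Mξ⟩` when `⟨v,Mv⟩` has a limit `< C` -/
theorem row_le {M : X → Matrix ι ι ℝ} (hM : ∀ᶠ x in G, (M x).PosSemidef)
    {v w : L → X → ι → ℝ} (hv : ∀ i, FR (fun l x => v l x i))
    (hw : ∀ i, FR (fun l x => w l x i)) {c C : ℝ}
    (hc : GermFR F G (fun l x => v l x ⬝ᵥ (M x *ᵥ v l x)) c) (hC : c < C) :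
    SosF F G (fun l x => C * (w l x ⬝ᵥ (M x *ᵥ w l x)) -
      (v l x ⬝ᵥ (M x *ᵥ w l x)) * (v l x ⬝ᵥ (M x *ᵥ w l x))) := by
  have h1 : GermFR F G (fun l x => C - v l x ⬝ᵥ (M x *ᵥ v l x)) (C - c) :=
    (GermFR.const C).sub hc
  have h2 := (GermFR.sosF h1 (by linarith)).mul (sosF_form (F := F) hM hw)
  refine (h2.add (sosF_cs2 hM hv hw)).congr' fun l x => ?_
  ring

/-- row inequality with a one-sided weight: `⟨v,Mξ⟩² / m ≤ ⟨ξ,Mξ⟩`, `⟨v,Mv⟩ ≤ m`, `m = m(x) > 0`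
or `⟨v,Mv⟩ = 0` -/
theorem row_weight {M : X → Matrix ι ι ℝ} (hM : ∀ᶠ x in G, (M x).PosSemidef)
    {v : X → ι → ℝ} {w : L → X → ι → ℝ}
    (hw : ∀ i, FR (fun l x => w l x i)) {m : X → ℝ}
    (hm : ∀ᶠ x in G, v x ⬝ᵥ (M x *ᵥ v x) ≤ m x) :
    SosF F G (fun l x => w l x ⬝ᵥ (M x *ᵥ w l x) -
      (m x)⁻¹ * ((v x ⬝ᵥ (M x *ᵥ w l x)) * (v x ⬝ᵥ (M x *ᵥ w l x)))) := by
  classical
  -- `M - m⁻¹ M v vᵀ M` is positive semidefinite
  let N : X → Matrix ι ι ℝ := fun x =>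
    M x - (m x)⁻¹ • Matrix.vecMulVec (M x *ᵥ v x) (M x *ᵥ v x)
  have hN : ∀ᶠ x in G, (N x).PosSemidef := by
    filter_upwards [hM, hm] with x hx hmx
    have h0 : 0 ≤ v x ⬝ᵥ (M x *ᵥ v x) := H387.psd_nonneg hx _
    have hm0 : 0 ≤ m x := h0.trans hmx
    refine Matrix.PosSemidef.of_dotProduct_mulVec_nonneg ?_ (fun w => ?_)
    · refine hx.1.sub ?_
      show ((m x)⁻¹ • Matrix.vecMulVec (M x *ᵥ v x) (M x *ᵥ v x))ᴴ = _
      ext i j
      simp only [Matrix.conjTranspose_apply, Matrix.smul_apply, Matrix.vecMulVec_apply,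
        star_trivial, smul_eq_mul]
      ring
    · rw [star_trivial]
      have e1 : w ⬝ᵥ (N x *ᵥ w) = w ⬝ᵥ (M x *ᵥ w) -
          (m x)⁻¹ * (v x ⬝ᵥ (M x *ᵥ w)) ^ 2 := by
        show w ⬝ᵥ ((M x - (m x)⁻¹ • Matrix.vecMulVec (M x *ᵥ v x) (M x *ᵥ v x)) *ᵥ w) = _
        rw [Matrix.sub_mulVec, dotProduct_sub, Matrix.smul_mulVec, dotProduct_smul,
          Matrix.vecMulVec_mulVec, smul_eq_mul]
        have e2 : w ⬝ᵥ (M x *ᵥ v x) = v x ⬝ᵥ (M x *ᵥ w) := H387.herm_swap hx.1 _ _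
        have e3 : (M x *ᵥ v x) ⬝ᵥ w = v x ⬝ᵥ (M x *ᵥ w) := by
          rw [dotProduct_comm]; exact e2
        rw [e3]
        simp only [dotProduct_smul, e2]
        show w ⬝ᵥ (M x *ᵥ w) - (m x)⁻¹ * ((v x ⬝ᵥ (M x *ᵥ w)) * (v x ⬝ᵥ (M x *ᵥ w))) = _
        ring
      rw [e1]
      obtain ⟨B, hB⟩ := exists_factor M
      have hcs : (v x ⬝ᵥ (M x *ᵥ w)) ^ 2 ≤
          (v x ⬝ᵥ (M x *ᵥ v x)) * (w ⬝ᵥ (M x *ᵥ w)) := by
        rw [factor_form (hB x hx), factor_form (hB x hx), factor_form (hB x hx)]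
        have := Finset.sum_mul_sq_le_sq_mul_sq Finset.univ (fun k => (B x *ᵥ v x) k)
          (fun k => (B x *ᵥ w) k)
        simpa [sq] using this
      have hw0 : 0 ≤ w ⬝ᵥ (M x *ᵥ w) := H387.psd_nonneg hx _
      rcases hm0.eq_or_lt with hm1 | hm1
      · rw [← hm1]; simpa using hw0
      · rw [sub_nonneg, inv_mul_le_iff₀ hm1]
        exact hcs.trans (mul_le_mul_of_nonneg_right hmx hw0)
  refine (sosF_form (F := F) hN hw).congr (EqF.of_eventually (fun _ => True)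
    (fun x => (M x).PosSemidef) (by simp) hM ?_)
  intro l x _ hx
  show _ = w l x ⬝ᵥ ((M x - (m x)⁻¹ • Matrix.vecMulVec (M x *ᵥ v x) (M x *ᵥ v x)) *ᵥ w l x)
  rw [Matrix.sub_mulVec, dotProduct_sub, Matrix.smul_mulVec, dotProduct_smul,
    Matrix.vecMulVec_mulVec, smul_eq_mul]
  have e2 : w l x ⬝ᵥ (M x *ᵥ v x) = v x ⬝ᵥ (M x *ᵥ w l x) := H387.herm_swap hx.1 _ _
  have e3 : (M x *ᵥ v x) ⬝ᵥ w l x = v x ⬝ᵥ (M x *ᵥ w l x) := by
    rw [dotProduct_comm]; exact e2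
  rw [e3]
  simp only [dotProduct_smul, e2]
  rfl

namespace State

variable {s : State F G u}

/-- if the value of `|F|² = ⟨ξ,Mξ⟩` is `≤ 0` all rows `⟨v,Mξ⟩` with bounded `⟨v,Mv⟩` are null -/
theorem null_row {M : X → Matrix ι ι ℝ} (hM : ∀ᶠ x in G, (M x).PosSemidef)
    {v w : L → X → ι → ℝ} (hv : ∀ i, FR (fun l x => v l x i))
    (hw : ∀ i, FR (fun l x => w l x i)) {c : ℝ}
    (hc : GermFR F G (fun l x => v l x ⬝ᵥ (M x *ᵥ v l x)) c)
    (hI : InI F G u (fun l x => w l x ⬝ᵥ (M x *ᵥ w l x)))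
    (h0 : s.φ (fun l x => w l x ⬝ᵥ (M x *ᵥ w l x)) ≤ 0) :
    s.Null (fun l x => v l x ⬝ᵥ (M x *ᵥ w l x)) :=
  null_of_le hI h0 (fr_dot hv (fun i => fr_mulVec hw i)) (C := |c| + 1) (by positivity)
    (row_le hM hv hw hc (by have := le_abs_self c; linarith))

/-- rows with an infinitesimal weight are null as soon as `⟨ξ,Mξ⟩` is bounded by `u` -/
theorem null_row_small {M : X → Matrix ι ι ℝ} (hM : ∀ᶠ x in G, (M x).PosSemidef)
    {v w : L → X → ι → ℝ} (hv : ∀ i, FR (fun l x => v l x i))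
    (hw : ∀ i, FR (fun l x => w l x i))
    (hc : GermFR F G (fun l x => v l x ⬝ᵥ (M x *ᵥ v l x)) 0)
    (hI : InI F G u (fun l x => w l x ⬝ᵥ (M x *ᵥ w l x))) :
    s.Null (fun l x => v l x ⬝ᵥ (M x *ᵥ w l x)) := by
  have hL : InL F G u (fun l x => v l x ⬝ᵥ (M x *ᵥ w l x)) :=
    InL.domI hI (fr_dot hv (fun i => fr_mulVec hw i)) zero_le_one
      (row_le hM hv hw hc one_pos)
  refine ⟨hL, le_antisymm ?_ (s.ip_self_nonneg hL)⟩
  set a := s.φ (fun l x => w l x ⬝ᵥ (M x *ᵥ w l x)) with ha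
  have h1 : ∀ ε : ℝ, 0 < ε → s.ip (fun l x => v l x ⬝ᵥ (M x *ᵥ w l x))
      (fun l x => v l x ⬝ᵥ (M x *ᵥ w l x)) ≤ ε * a := by
    intro ε hε
    have h2 := row_le (F := F) hM hv hw hc hε
    have h3 := s.mono (hL.mul hL) (hI.smul ε) h2
    rw [s.smul] at h3
    exact h3
  by_contra hcon
  push Not at hcon
  set A := s.ip (fun l x => v l x ⬝ᵥ (M x *ᵥ w l x)) (fun l x => v l x ⬝ᵥ (M x *ᵥ w l x)) with hA
  have h4 := h1 (A / (2 * (|a| + 1))) (by positivity)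
  have h5 : A / (2 * (|a| + 1)) * a < A := by
    rw [div_mul_eq_mul_div, div_lt_iff₀ (by positivity)]
    nlinarith [le_abs_self a, abs_nonneg a]
  linarith

/-- the test vector inequality in a state: `φ(2 h ⟨v,Mξ⟩ - h² ⟨v,Mv⟩) ≤ φ(⟨ξ,Mξ⟩)` -/
theorem test_le {M : X → Matrix ι ι ℝ} (hM : ∀ᶠ x in G, (M x).PosSemidef)
    (hH : ∀ᶠ x in G, (M x).IsHermitian)
    {v w : L → X → ι → ℝ} (hv : ∀ i, FR (fun l x => v l x i))
    (hw : ∀ i, FR (fun l x => w l x i)) :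
    SosF F G (fun l x => w l x ⬝ᵥ (M x *ᵥ w l x) -
      (2 * (v l x ⬝ᵥ (M x *ᵥ w l x)) - v l x ⬝ᵥ (M x *ᵥ v l x))) := by
  have h1 := sosF_form (F := F) hM (w := fun l x => w l x - v l x)
    (fun i => (hw i).sub (hv i))
  refine h1.congr (EqF.of_eventually (fun _ => True) (fun x => (M x).IsHermitian) (by simp) hH ?_)
  intro l x _ hx
  rw [Matrix.mulVec_sub, sub_dotProduct, dotProduct_sub, dotProduct_sub,
    H387.herm_swap hx (w l x) (v l x)]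
  ring

end State

end Vale.Agent.P256.H576
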