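import Vale.Agent.P256.H326.Ultra

/-! States on finite rank kernels.  `InI u h`: `N u ± h` are sums of squares along the filters;
`InL u h`: `h` has finite rank and `h²` is bounded by `u`.  A state at `u` is a linear
functional, nonnegative on the sums of squares bounded by `u`, with value `1` at `u`.  If `T` is
bounded by `u` and is not a sum of squares there is a state with `φ T ≤ 0`. -/

set_option linter.all false

namespace Vale.Agent.P256.H576

open Filter Topology Vale.Agent.P256 Vale.Agent.P256.H326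

variable {L X : Type*} {F : Filter L} {G : Filter X}

/-- kernels bounded by `u` -/
def InI (F : Filter L) (G : Filter X) (u h : L → X → ℝ) : Prop :=
  ∃ N : ℝ, 0 ≤ N ∧ SosF F G (fun l x => N * u l x - h l x) ∧
    SosF F G (fun l x => N * u l x + h l x)

/-- kernels with square bounded by `u` -/
def InL (F : Filter L) (G : Filter X) (u h : L → X → ℝ) : Prop :=
  FR h ∧ ∃ N : ℝ, 0 ≤ N ∧ SosF F G (fun l x => N * u l x - h l x * h l x)

theorem SosF.congrE {h h' : L → X → ℝ} (H : SosF F G h)
    (e : ∀ l x, h' l x = h l x) : SosF F G h' := H.congr' e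

variable {u : L → X → ℝ}

theorem InI.mono' {h : L → X → ℝ} {N N' : ℝ} (hu : SosF F G u) (h0 : N ≤ N')
    (H : SosF F G (fun l x => N * u l x - h l x)) : SosF F G (fun l x => N' * u l x - h l x) :=
  ((SosF.smul (sub_nonneg.2 h0) hu).add H).congr' fun l x => by ring

theorem InI.zero (F : Filter L) (G : Filter X) (u : L → X → ℝ) :
    InI F G u (fun _ _ => 0) :=
  ⟨0, le_rfl, SosF.zero.congr' fun l x => by ring, SosF.zero.congr' fun l x => by ring⟩

theorem InI.self (hu : SosF F G u) : InI F G u u :=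
  ⟨1, zero_le_one, SosF.zero.congr' fun l x => by ring,
    (SosF.smul (c := 2) (by norm_num) hu).congr' fun l x => by ring⟩

theorem InI.congr {h h' : L → X → ℝ} (H : InI F G u h) (e : ∀ l x, h' l x = h l x) :
    InI F G u h' := by
  obtain ⟨N, hN, h1, h2⟩ := H
  exact ⟨N, hN, h1.congr' fun l x => by rw [e], h2.congr' fun l x => by rw [e]⟩

theorem InI.congrF {h h' : L → X → ℝ} (H : InI F G u h) (e : EqF F G h' h) :
    InI F G u h' := by
  obtain ⟨N, hN, h1, h2⟩ := H
  obtain ⟨A, hA, B, hB, e⟩ := e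
  exact ⟨N, hN, h1.congr ⟨A, hA, B, hB, fun l hl x hx => by beta_reduce; rw [e l hl x hx]⟩,
    h2.congr ⟨A, hA, B, hB, fun l hl x hx => by beta_reduce; rw [e l hl x hx]⟩⟩

theorem InI.add {h h' : L → X → ℝ} (H : InI F G u h) (H' : InI F G u h') :
    InI F G u (fun l x => h l x + h' l x) := by
  obtain ⟨N, hN, h1, h2⟩ := H
  obtain ⟨N', hN', h1', h2'⟩ := H'
  exact ⟨N + N', add_nonneg hN hN', (h1.add h1').congr' fun l x => by ring,
    (h2.add h2').congr' fun l x => by ring⟩

theorem InI.neg {h : L → X → ℝ} (H : InI F G u h) : InI F G u (fun l x => - h l x) := by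
  obtain ⟨N, hN, h1, h2⟩ := H
  exact ⟨N, hN, h2.congr' fun l x => by ring, h1.congr' fun l x => by ring⟩

theorem InI.sub {h h' : L → X → ℝ} (H : InI F G u h) (H' : InI F G u h') :
    InI F G u (fun l x => h l x - h' l x) := (H.add H'.neg).congr fun l x => by ring

theorem InI.smul {h : L → X → ℝ} (c : ℝ) (H : InI F G u h) :
    InI F G u (fun l x => c * h l x) := by
  obtain ⟨N, hN, h1, h2⟩ := H
  rcases le_total 0 c with hc | hc
  · exact ⟨c * N, mul_nonneg hc hN, (h1.smul hc).congr' fun l x => by ring,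
      (h2.smul hc).congr' fun l x => by ring⟩
  · have hc' : 0 ≤ -c := neg_nonneg.2 hc
    exact ⟨-c * N, mul_nonneg hc' hN, (h2.smul hc').congr' fun l x => by ring,
      (h1.smul hc').congr' fun l x => by ring⟩

theorem InI.sum {ι : Type*} (s : Finset ι) {h : ι → L → X → ℝ}
    (H : ∀ i ∈ s, InI F G u (h i)) : InI F G u (fun l x => ∑ i ∈ s, h i l x) := by
  classical
  induction s using Finset.induction_on with
  | empty => exact (InI.zero F G u).congr fun l x => by simp
  | insert i s hi ih =>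
    refine ((H i (Finset.mem_insert_self i s)).add
      (ih fun j hj => H j (Finset.mem_insert_of_mem hj))).congr fun l x => ?_
    rw [Finset.sum_insert hi]

/-- sum of squares below `u` -/
theorem InI.of_sos {h : L → X → ℝ} {N : ℝ} (hN : 0 ≤ N) (hu : SosF F G u) (h0 : SosF F G h)
    (h1 : SosF F G (fun l x => N * u l x - h l x)) : InI F G u h :=
  ⟨N, hN, h1, ((SosF.smul hN hu).add h0).congr' fun l x => by ring⟩

theorem InL.congr {h h' : L → X → ℝ} (H : InL F G u h) (e : ∀ l x, h' l x = h l x) :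
    InL F G u h' := by
  obtain ⟨h0, N, hN, h1⟩ := H
  exact ⟨h0.congr e, N, hN, h1.congr' fun l x => by rw [e]⟩

theorem InL.congrF {h h' : L → X → ℝ} (H : InL F G u h) (hf : FR h') (e : EqF F G h' h) :
    InL F G u h' := by
  obtain ⟨h0, N, hN, h1⟩ := H
  obtain ⟨A, hA, B, hB, e⟩ := e
  exact ⟨hf, N, hN,
    h1.congr ⟨A, hA, B, hB, fun l hl x hx => by beta_reduce; rw [e l hl x hx]⟩⟩

theorem InL.add {h h' : L → X → ℝ} (H : InL F G u h) (H' : InL F G u h') :
    InL F G u (fun l x => h l x + h' l x) := by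
  obtain ⟨h0, N, hN, h1⟩ := H
  obtain ⟨h0', N', hN', h1'⟩ := H'
  refine ⟨h0.add h0', 2 * N + 2 * N', by positivity, ?_⟩
  refine (((h1.smul (c := 2) (by norm_num)).add (h1'.smul (c := 2) (by norm_num))).add
    (SosF.sq (h0.sub h0'))).congr' fun l x => ?_
  ring

theorem InL.smul {h : L → X → ℝ} (c : ℝ) (H : InL F G u h) :
    InL F G u (fun l x => c * h l x) := by
  obtain ⟨h0, N, hN, h1⟩ := H
  refine ⟨h0.smul c, c ^ 2 * N, by positivity, (h1.smul (sq_nonneg c)).congr' fun l x => ?_⟩
  ring

theorem InL.neg {h : L → X → ℝ} (H : InL F G u h) : InL F G u (fun l x => - h l x) :=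
  (H.smul (-1)).congr fun l x => by ring

theorem InL.sub {h h' : L → X → ℝ} (H : InL F G u h) (H' : InL F G u h') :
    InL F G u (fun l x => h l x - h' l x) := (H.add H'.neg).congr fun l x => by ring

theorem InL.zero (F : Filter L) (G : Filter X) (u : L → X → ℝ) :
    InL F G u (fun _ _ => 0) :=
  ⟨FR.const 0, 0, le_rfl, SosF.zero.congr' fun l x => by ring⟩

theorem InL.sum {ι : Type*} (s : Finset ι) {h : ι → L → X → ℝ}
    (H : ∀ i ∈ s, InL F G u (h i)) : InL F G u (fun l x => ∑ i ∈ s, h i l x) := by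
  classical
  induction s using Finset.induction_on with
  | empty => exact (InL.zero F G u).congr fun l x => by simp
  | insert i s hi ih =>
    refine ((H i (Finset.mem_insert_self i s)).add
      (ih fun j hj => H j (Finset.mem_insert_of_mem hj))).congr fun l x => ?_
    rw [Finset.sum_insert hi]

/-- domination: `k² ≤ C h²` -/
theorem InL.dom {h k : L → X → ℝ} (H : InL F G u h) (hk : FR k) {C : ℝ} (hC : 0 ≤ C)
    (h1 : SosF F G (fun l x => C * (h l x * h l x) - k l x * k l x)) : InL F G u k := by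
  obtain ⟨h0, N, hN, h2⟩ := H
  exact ⟨hk, C * N, mul_nonneg hC hN, ((h2.smul hC).add h1).congr' fun l x => by ring⟩

/-- domination by an element of the order ideal -/
theorem InL.domI {P k : L → X → ℝ} (H : InI F G u P) (hk : FR k) {C : ℝ} (hC : 0 ≤ C)
    (h1 : SosF F G (fun l x => C * P l x - k l x * k l x)) : InL F G u k := by
  obtain ⟨N, hN, h2, h3⟩ := H
  exact ⟨hk, C * N, mul_nonneg hC hN, ((h2.smul hC).add h1).congr' fun l x => by ring⟩

/-- products of two elements of `L_u` are in `I_u` -/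
theorem InL.mul {h k : L → X → ℝ} (H : InL F G u h) (K : InL F G u k) :
    InI F G u (fun l x => h l x * k l x) := by
  obtain ⟨h0, N, hN, h1⟩ := H
  obtain ⟨k0, M, hM, k1⟩ := K
  refine ⟨(N + M) / 2, by positivity, ?_, ?_⟩
  · refine (((h1.smul (c := 1 / 2) (by norm_num)).add (k1.smul (c := 1 / 2) (by norm_num))).add
      (SosF.smul (c := 1 / 2) (by norm_num) (SosF.sq (h0.sub k0)))).congr' fun l x => ?_
    ring
  · refine (((h1.smul (c := 1 / 2) (by norm_num)).add (k1.smul (c := 1 / 2) (by norm_num))).add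
      (SosF.smul (c := 1 / 2) (by norm_num) (SosF.sq (h0.add k0)))).congr' fun l x => ?_
    ring

theorem germ_fr {h : L → X → ℝ} {c : ℝ} (H : GermFR F G h c) : FR h := by
  obtain ⟨n, a, f, a0, f0, ha, hf, hh, hc⟩ := H
  exact ⟨n, a, f, hh⟩

/-- squares of products with germs -/
theorem germ_sq_le {a h : L → X → ℝ} {c C : ℝ} (ha : GermFR F G a c) (hC : c ^ 2 < C)
    (hh : FR h) : SosF F G (fun l x => C * (h l x * h l x) - (a l x * h l x) * (a l x * h l x)) := by
  have h1 : GermFR F G (fun l x => C - a l x * a l x) (C - c * c) :=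
    (GermFR.const C).sub (ha.mul ha)
  have h2 : SosF F G (fun l x => C - a l x * a l x) := GermFR.sosF h1 (by nlinarith)
  exact (h2.mul (SosF.sq hh)).congr' fun l x => by ring

theorem InL.germ {a h : L → X → ℝ} {c : ℝ} (ha : GermFR F G a c) (H : InL F G u h) :
    InL F G u (fun l x => a l x * h l x) :=
  H.dom ((germ_fr ha).mul H.1) (C := c ^ 2 + 1) (by positivity)
    (germ_sq_le ha (by linarith) H.1)

/-- **unit division**: `a → c ≠ 0`, `a h ∈ L_u` implies `h ∈ L_u` -/
theorem InL.of_germ {a h : L → X → ℝ} {c : ℝ} (ha : GermFR F G a c) (hc : c ≠ 0) (hh : FR h)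
    (H : InL F G u (fun l x => a l x * h l x)) : InL F G u h := by
  have hc2 : 0 < c * c := mul_self_pos.2 hc
  have h1 : GermFR F G (fun l x => a l x * a l x - c * c / 2) (c * c - c * c / 2) :=
    (ha.mul ha).sub (GermFR.const (c * c / 2))
  have h2 : SosF F G (fun l x => a l x * a l x - c * c / 2) := GermFR.sosF h1 (by linarith)
  refine H.dom hh (C := (c * c / 2)⁻¹) (by positivity) ?_
  refine ((h2.mul (SosF.sq hh)).smul (c := (c * c / 2)⁻¹) (by positivity)).congr' fun l x => ?_
  have : c * c / 2 ≠ 0 := by positivity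
  field_simp

/-! ### the submodule of kernels bounded by `u` -/

/-- the submodule of kernels bounded by `u` -/
def modI (F : Filter L) (G : Filter X) (u : L → X → ℝ) : Submodule ℝ (L → X → ℝ) where
  carrier := {h | InI F G u h}
  add_mem' := fun {a b} ha hb => (InI.add ha hb).congr fun l x => rfl
  zero_mem' := (InI.zero F G u).congr fun l x => rfl
  smul_mem' := fun c h hh => (InI.smul c hh).congr fun l x => rfl

/-- a state at `u` -/
structure State (F : Filter L) (G : Filter X) (u : L → X → ℝ) where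
  /-- the functional -/
  φ : (L → X → ℝ) →ₗ[ℝ] ℝ
  pos : ∀ h, InI F G u h → SosF F G h → 0 ≤ φ h
  one : φ u = 1
  su : SosF F G u

/-- if `N u` and `-M u` (`M > 0`) are sums of squares, everything bounded by `u` is one -/
theorem sosF_of_neg {T : L → X → ℝ} (hT : InI F G u T) {c : ℝ} (hc : c < 0)
    (h : SosF F G (fun l x => c * u l x)) : SosF F G T := by
  obtain ⟨N, hN, h1, h2⟩ := hT
  have h3 : SosF F G (fun l x => (N / (-c)) * (c * u l x)) := h.smul (by
    have : 0 < -c := by linarith
    positivity)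
  refine (h2.add h3).congr' fun l x => ?_
  have : -c ≠ 0 := by linarith
  have hc0 : c ≠ 0 := by linarith
  field_simp
  ring

/-- **Existence of states**, general form -/
theorem exists_state_gen {T : L → X → ℝ} (hu : SosF F G u) (hT : InI F G u T)
    (hn : ∀ c : ℝ, 0 ≤ c → ¬ SosF F G (fun l x => c * T l x - u l x)) :
    ∃ s : State F G u, s.φ T ≤ 0 := by
  classical
  -- the cone generated by the sums of squares and `-T`
  let E := modI F G u
  let uE : E := ⟨u, InI.self hu⟩
  let TE : E := ⟨T, hT⟩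
  let K : PointedCone ℝ E :=
    { carrier := {h : E | ∃ c : ℝ, 0 ≤ c ∧ SosF F G (fun l x => h.1 l x + c * T l x)}
      add_mem' := by
        rintro a b ⟨c, hc, ha⟩ ⟨d, hd, hb⟩
        refine ⟨c + d, add_nonneg hc hd, (ha.add hb).congr' fun l x => ?_⟩
        show (a.1 l x + b.1 l x) + (c + d) * T l x = _
        ring
      zero_mem' := ⟨0, le_rfl, SosF.zero.congr' fun l x => by
        show (0 : ℝ) + 0 * T l x = 0
        ring⟩
      smul_mem' := by
        rintro ⟨r, hr⟩ a ⟨c, hc, ha⟩
        refine ⟨r * c, mul_nonneg hr hc, (ha.smul hr).congr' fun l x => ?_⟩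
        show r * a.1 l x + (r * c) * T l x = _
        ring }
  have hK : ∀ h : E, h ∈ K ↔ ∃ c : ℝ, 0 ≤ c ∧ SosF F G (fun l x => h.1 l x + c * T l x) :=
    fun h => Iff.rfl
  have hu0 : uE ≠ 0 := by
    intro h0
    have h1 : u = 0 := congrArg Subtype.val h0
    refine hn 0 le_rfl (SosF.zero.congr' fun l x => ?_)
    rw [h1]; simp
  let f : E →ₗ.[ℝ] ℝ := LinearPMap.mkSpanSingleton uE (1 : ℝ) hu0
  have hfd : ∀ x : f.domain, ∃ c : ℝ, (x : E) = c • uE ∧ f x = c := by
    intro x
    obtain ⟨c, hc⟩ := Submodule.mem_span_singleton.1 x.2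
    refine ⟨c, hc.symm, ?_⟩
    have hx : x = ⟨c • uE, Submodule.mem_span_singleton.2 ⟨c, rfl⟩⟩ := Subtype.ext hc.symm
    rw [hx]
    exact (LinearPMap.mkSpanSingleton'_apply uE (1 : ℝ) _ c _).trans (by simp)
  obtain ⟨g, hg1, hg2⟩ := riesz_extension K f
    (fun x hx => by
      obtain ⟨c, hc, hfc⟩ := hfd x
      rw [hfc]
      by_contra hneg
      push Not at hneg
      rw [hK] at hx
      obtain ⟨d, hd, hs⟩ := hx
      have e1 : ∀ l x', (x : E).1 l x' = c * u l x' := by
        intro l x'
        rw [hc]; rfl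
      have hc' : 0 < -c := by linarith
      refine hn (d / (-c)) (by positivity) ((hs.smul (c := (-c)⁻¹) (by positivity)).congr'
        fun l x' => ?_)
      rw [e1]
      have hc0 : c ≠ 0 := hneg.ne
      field_simp
      ring)
    (fun y => by
      obtain ⟨N, hN, h1, h2⟩ := y.2
      refine ⟨⟨N • uE, Submodule.mem_span_singleton.2 ⟨N, rfl⟩⟩, ?_⟩
      rw [hK]
      refine ⟨0, le_rfl, h2.congr' fun l x => ?_⟩
      show (N * u l x + y.1 l x) + 0 * T l x = _
      ring)
  obtain ⟨φ, hφ⟩ := LinearMap.exists_extend g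
  have hφE : ∀ h : E, φ h.1 = g h := fun h => LinearMap.congr_fun hφ h
  refine ⟨⟨φ, fun h hI hS => ?_, ?_, hu⟩, ?_⟩
  · have := hφE ⟨h, hI⟩
    rw [this]
    refine hg2 _ ((hK _).2 ⟨0, le_rfl, hS.congr' fun l x => ?_⟩)
    show h l x + 0 * T l x = _
    ring
  · have h1 := hφE uE
    show φ u = 1
    rw [h1]
    have h2 := hg1 ⟨uE, Submodule.mem_span_singleton.2 ⟨1, one_smul _ _⟩⟩
    rw [h2]
    obtain ⟨c, hc, hfc⟩ := hfd ⟨uE, Submodule.mem_span_singleton.2 ⟨1, one_smul _ _⟩⟩
    rw [hfc]
    have h3 : u = fun l x => c * u l x := congrArg Subtype.val hc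
    by_contra hc1
    apply hu0
    refine Subtype.ext ?_
    funext l x
    show u l x = 0
    have h4 := congrFun (congrFun h3 l) x
    beta_reduce at h4
    have h5 : (c - 1) * u l x = 0 := by linarith
    rcases mul_eq_zero.1 h5 with h6 | h6
    · exact absurd (by linarith) hc1
    · exact h6
  · have h1 : 0 ≤ g (-TE) := hg2 _ ((hK _).2 ⟨1, zero_le_one, SosF.zero.congr' fun l x => by
      show (-T l x) + 1 * T l x = 0
      ring⟩)
    have h2 := hφE TE
    show φ T ≤ 0
    rw [h2]
    rw [map_neg] at h1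
    linarith

/-- **Existence of states** -/
theorem exists_state {T : L → X → ℝ} (hu : SosF F G u) (hT : InI F G u T)
    (hn : ¬ SosF F G T) : ∃ s : State F G u, s.φ T ≤ 0 := by
  refine exists_state_gen hu hT fun c hc hs => hn ?_
  rcases hc.eq_or_lt with hc0 | hc0
  · refine sosF_of_neg hT (c := -1) (by norm_num) (hs.congr' fun l x => ?_)
    rw [← hc0]; ring
  · refine ((hs.add hu).smul (c := c⁻¹) (by positivity)).congr' fun l x => ?_
    field_simp
    ring

end Vale.Agent.P256.H576
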