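import Vale.Agent.P256.H576.State

/-! Calculus of states: the semidefinite form `⟨h,k⟩ = φ (h k)` on `L_u`, null elements,
multiplication by germs of finite rank kernels (they act by their limit), dominated elements,
the multiplier trick. -/

set_option linter.all false

namespace Vale.Agent.P256.H576

open Filter Topology Vale.Agent.P256 Vale.Agent.P256.H326

variable {L X : Type*} {F : Filter L} {G : Filter X} {u : L → X → ℝ}

namespace State

variable (s : State F G u)

theorem uI (s : State F G u) : InI F G u u := InI.self s.su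

theorem add (a b : L → X → ℝ) : s.φ (fun l x => a l x + b l x) = s.φ a + s.φ b :=
  map_add s.φ a b

theorem sub (a b : L → X → ℝ) : s.φ (fun l x => a l x - b l x) = s.φ a - s.φ b :=
  map_sub s.φ a b

theorem neg (a : L → X → ℝ) : s.φ (fun l x => - a l x) = - s.φ a := map_neg s.φ a

theorem smul (c : ℝ) (a : L → X → ℝ) : s.φ (fun l x => c * a l x) = c * s.φ a :=
  map_smul s.φ c a

theorem zero : s.φ (fun _ _ => 0) = 0 := map_zero s.φ

theorem sum {ι : Type*} (t : Finset ι) (h : ι → L → X → ℝ) :
    s.φ (fun l x => ∑ i ∈ t, h i l x) = ∑ i ∈ t, s.φ (h i) := by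
  have h1 : (fun l x => ∑ i ∈ t, h i l x) = ∑ i ∈ t, h i := by
    funext l x
    simp [Finset.sum_apply]
  rw [h1, map_sum]

theorem congr {a b : L → X → ℝ} (e : ∀ l x, a l x = b l x) : s.φ a = s.φ b := by
  have : a = b := by funext l x; exact e l x
  rw [this]

/-- monotonicity -/
theorem mono {a b : L → X → ℝ} (ha : InI F G u a) (hb : InI F G u b)
    (h : SosF F G (fun l x => b l x - a l x)) : s.φ a ≤ s.φ b := by
  have h1 := s.pos _ (hb.sub ha) h
  rw [s.sub] at h1
  linarith

/-- a bounded element which is zero along the filters has value zero -/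
theorem eq_zero {a : L → X → ℝ} (e : EqF F G a (fun _ _ => 0)) : s.φ a = 0 := by
  have h0 : InI F G u a := (InI.zero F G u).congrF e
  have h1 : SosF F G a := (SosF.zero (F := F) (G := G)).congr e
  have h2 : SosF F G (fun l x => - a l x) := by
    obtain ⟨A, hA, B, hB, e⟩ := e
    refine (SosF.zero (F := F) (G := G)).congr ⟨A, hA, B, hB, fun l hl x hx => ?_⟩
    beta_reduce
    rw [e l hl x hx]; simp
  have h3 := s.pos _ h0 h1
  have h4 := s.pos _ h0.neg h2
  rw [s.neg] at h4
  linarith

theorem congrF {a b : L → X → ℝ} (e : EqF F G a b) : s.φ a = s.φ b := by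
  have h1 : EqF F G (fun l x => a l x - b l x) (fun _ _ => 0) := by
    obtain ⟨A, hA, B, hB, e⟩ := e
    exact ⟨A, hA, B, hB, fun l hl x hx => by beta_reduce; rw [e l hl x hx]; simp⟩
  have h2 := s.eq_zero h1
  rw [s.sub] at h2
  linarith

/-- the form -/
def ip (h k : L → X → ℝ) : ℝ := s.φ (fun l x => h l x * k l x)

theorem ip_comm (h k : L → X → ℝ) : s.ip h k = s.ip k h :=
  s.congr fun l x => mul_comm _ _

theorem ip_add_left (h h' k : L → X → ℝ) :
    s.ip (fun l x => h l x + h' l x) k = s.ip h k + s.ip h' k := by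
  unfold ip
  rw [← s.add]
  exact s.congr fun l x => by ring

theorem ip_sub_left (h h' k : L → X → ℝ) :
    s.ip (fun l x => h l x - h' l x) k = s.ip h k - s.ip h' k := by
  unfold ip
  rw [← s.sub]
  exact s.congr fun l x => by ring

theorem ip_smul_left (c : ℝ) (h k : L → X → ℝ) :
    s.ip (fun l x => c * h l x) k = c * s.ip h k := by
  unfold ip
  rw [← s.smul]
  exact s.congr fun l x => by ring

theorem ip_add_right (h k k' : L → X → ℝ) :
    s.ip h (fun l x => k l x + k' l x) = s.ip h k + s.ip h k' := by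
  rw [s.ip_comm, s.ip_add_left, s.ip_comm, s.ip_comm k']

theorem ip_sub_right (h k k' : L → X → ℝ) :
    s.ip h (fun l x => k l x - k' l x) = s.ip h k - s.ip h k' := by
  rw [s.ip_comm, s.ip_sub_left, s.ip_comm, s.ip_comm k']

theorem ip_smul_right (c : ℝ) (h k : L → X → ℝ) :
    s.ip h (fun l x => c * k l x) = c * s.ip h k := by
  rw [s.ip_comm, s.ip_smul_left, s.ip_comm]

theorem ip_self_nonneg {h : L → X → ℝ} (H : InL F G u h) : 0 ≤ s.ip h h :=
  s.pos _ (H.mul H) ((SosF.sq H.1).congr' fun l x => by ring)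

/-- Cauchy-Schwarz -/
theorem cs {h k : L → X → ℝ} (H : InL F G u h) (K : InL F G u k) :
    (s.ip h k) ^ 2 ≤ s.ip h h * s.ip k k := by
  have h1 : ∀ t : ℝ, 0 ≤ s.ip h h * (t * t) + (2 * s.ip h k) * t + s.ip k k := by
    intro t
    have h2 := s.ip_self_nonneg ((H.smul t).add K)
    have e : s.ip (fun l x => t * h l x + k l x) (fun l x => t * h l x + k l x) =
        s.ip h h * (t * t) + (2 * s.ip h k) * t + s.ip k k := by
      rw [s.ip_add_left, s.ip_add_right, s.ip_add_right, s.ip_smul_left, s.ip_smul_left,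
        s.ip_smul_right, s.ip_smul_right, s.ip_comm k h]
      ring
    rw [e] at h2
    exact h2
  have h2 := discrim_le_zero h1
  unfold discrim at h2
  nlinarith

/-- null elements -/
def Null (h : L → X → ℝ) : Prop := InL F G u h ∧ s.ip h h = 0

variable {s}

theorem Null.inL {h : L → X → ℝ} (H : s.Null h) : InL F G u h := H.1

theorem Null.ip {h k : L → X → ℝ} (H : s.Null h) (K : InL F G u k) : s.ip h k = 0 := by
  have h1 := s.cs H.1 K
  rw [H.2, zero_mul] at h1
  exact pow_eq_zero_iff (two_ne_zero) |>.1 (le_antisymm h1 (sq_nonneg _))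

theorem Null.ip' {h k : L → X → ℝ} (H : s.Null h) (K : InL F G u k) : s.ip k h = 0 := by
  rw [s.ip_comm]; exact H.ip K

theorem Null.congr {h h' : L → X → ℝ} (H : s.Null h) (e : ∀ l x, h' l x = h l x) :
    s.Null h' := by
  have : h' = h := by funext l x; exact e l x
  rw [this]; exact H

theorem Null.congrF {h h' : L → X → ℝ} (H : s.Null h) (hf : FR h') (e : EqF F G h' h) :
    s.Null h' := by
  refine ⟨H.1.congrF hf e, ?_⟩
  rw [← H.2]
  refine s.congrF ?_
  obtain ⟨A, hA, B, hB, e⟩ := e
  exact ⟨A, hA, B, hB, fun l hl x hx => by beta_reduce; rw [e l hl x hx]⟩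

theorem Null.zero : s.Null (fun _ _ => 0) :=
  ⟨InL.zero F G u, (s.congr fun l x => by simp).trans s.zero⟩

theorem Null.of_eqF {h : L → X → ℝ} (hf : FR h) (e : EqF F G h (fun _ _ => 0)) :
    s.Null h := Null.zero.congrF hf e

theorem Null.add {h k : L → X → ℝ} (H : s.Null h) (K : s.Null k) :
    s.Null (fun l x => h l x + k l x) := by
  refine ⟨H.1.add K.1, ?_⟩
  rw [s.ip_add_left, s.ip_add_right, s.ip_add_right, H.2, K.2, H.ip K.1, K.ip H.1]
  ring

theorem Null.smul {h : L → X → ℝ} (c : ℝ) (H : s.Null h) : s.Null (fun l x => c * h l x) := by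
  refine ⟨H.1.smul c, ?_⟩
  rw [s.ip_smul_left, s.ip_smul_right, H.2]; ring

theorem Null.neg {h : L → X → ℝ} (H : s.Null h) : s.Null (fun l x => - h l x) :=
  (H.smul (-1)).congr fun l x => by ring

theorem Null.sub {h k : L → X → ℝ} (H : s.Null h) (K : s.Null k) :
    s.Null (fun l x => h l x - k l x) := (H.add K.neg).congr fun l x => by ring

theorem Null.sum {ι : Type*} (t : Finset ι) {h : ι → L → X → ℝ}
    (H : ∀ i ∈ t, s.Null (h i)) : s.Null (fun l x => ∑ i ∈ t, h i l x) := by
  classical
  induction t using Finset.induction_on with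
  | empty => exact (Null.zero (s := s)).congr fun l x => by simp
  | insert i t hi ih =>
    refine ((H i (Finset.mem_insert_self i t)).add
      (ih fun j hj => H j (Finset.mem_insert_of_mem hj))).congr fun l x => ?_
    rw [Finset.sum_insert hi]

/-- an element of `L_u` dominated by a null element is null -/
theorem Null.dom {h k : L → X → ℝ} (H : s.Null h) (hk : FR k) {C : ℝ} (hC : 0 ≤ C)
    (h1 : SosF F G (fun l x => C * (h l x * h l x) - k l x * k l x)) : s.Null k := by
  have h2 := H.1.dom hk hC h1
  refine ⟨h2, le_antisymm ?_ (s.ip_self_nonneg h2)⟩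
  have h3 := s.mono (h2.mul h2) ((H.1.mul H.1).smul C) h1
  rw [s.smul] at h3
  have h4 : s.φ (fun l x => h l x * h l x) = 0 := H.2
  rw [h4, mul_zero] at h3
  exact h3

/-- `k² ≤ C P`, `φ P ≤ 0` implies that `k` is null -/
theorem null_of_le {P k : L → X → ℝ} (HP : InI F G u P) (h0 : s.φ P ≤ 0) (hk : FR k) {C : ℝ}
    (hC : 0 ≤ C) (h1 : SosF F G (fun l x => C * P l x - k l x * k l x)) : s.Null k := by
  have h2 := InL.domI HP hk hC h1
  refine ⟨h2, le_antisymm ?_ (s.ip_self_nonneg h2)⟩
  have h3 := s.mono (h2.mul h2) (HP.smul C) h1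
  rw [s.smul] at h3
  exact h3.trans (mul_nonpos_of_nonneg_of_nonpos hC h0)

/-- an infinitesimal multiple of an element of `L_u` is null -/
theorem null_small {a h : L → X → ℝ} (ha : GermFR F G a 0) (H : InL F G u h) :
    s.Null (fun l x => a l x * h l x) := by
  refine ⟨H.germ ha, ?_⟩
  have h1 : ∀ ε : ℝ, 0 < ε → s.ip (fun l x => a l x * h l x) (fun l x => a l x * h l x) ≤
      ε * s.ip h h := by
    intro ε hε
    have h2 := germ_sq_le (C := ε) ha (by simpa using hε) H.1
    have h3 := s.mono ((H.germ ha).mul (H.germ ha)) ((H.mul H).smul ε) h2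
    rw [s.smul] at h3
    exact h3
  refine le_antisymm ?_ (s.ip_self_nonneg (H.germ ha))
  by_contra hcon
  push Not at hcon
  set A := s.ip (fun l x => a l x * h l x) (fun l x => a l x * h l x) with hA
  have hh := s.ip_self_nonneg H
  have h4 := h1 (A / (2 * (s.ip h h + 1))) (by positivity)
  have h5 : A / (2 * (s.ip h h + 1)) * s.ip h h < A := by
    rw [div_mul_eq_mul_div, div_lt_iff₀ (by positivity)]
    nlinarith
  linarith

/-- germs act by their limit (congruence modulo null elements) -/
theorem null_germ {a h : L → X → ℝ} {c : ℝ} (ha : GermFR F G a c) (H : InL F G u h) :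
    s.Null (fun l x => a l x * h l x - c * h l x) := by
  have h1 : GermFR F G (fun l x => a l x - c) 0 := by
    have := ha.sub (GermFR.const (F := F) (G := G) c)
    rwa [sub_self] at this
  exact (null_small h1 H).congr fun l x => by ring

theorem Null.germ {a h : L → X → ℝ} {c : ℝ} (ha : GermFR F G a c) (H : s.Null h) :
    s.Null (fun l x => a l x * h l x) :=
  ((null_germ ha H.1).add (H.smul c)).congr fun l x => by ring

/-- division by a unit -/
theorem Null.of_germ {a h : L → X → ℝ} {c : ℝ} (ha : GermFR F G a c) (hc : c ≠ 0) (hh : FR h)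
    (H : s.Null (fun l x => a l x * h l x)) : s.Null h := by
  have h1 : InL F G u h := H.1.of_germ ha hc hh
  refine (((null_germ ha h1).sub H).smul (-c⁻¹)).congr fun l x => ?_
  field_simp
  ring

/-- congruent elements have the same products -/
theorem ip_congr_left {h h' k : L → X → ℝ} (H : s.Null (fun l x => h l x - h' l x))
    (K : InL F G u k) : s.ip h k = s.ip h' k := by
  have := H.ip K
  rw [s.ip_sub_left] at this
  linarith

theorem ip_congr_right {h h' k : L → X → ℝ} (H : s.Null (fun l x => h l x - h' l x))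
    (K : InL F G u k) : s.ip k h = s.ip k h' := by
  rw [s.ip_comm, s.ip_comm k]; exact ip_congr_left H K

theorem ip_germ {a h k : L → X → ℝ} {c : ℝ} (ha : GermFR F G a c) (H : InL F G u h)
    (K : InL F G u k) : s.ip (fun l x => a l x * h l x) k = c * s.ip h k := by
  rw [ip_congr_left (null_germ ha H) K, s.ip_smul_left]

/-- value of `a P` for `P = h k` -/
theorem germ_prod {a h k : L → X → ℝ} {c : ℝ} (ha : GermFR F G a c) (H : InL F G u h)
    (K : InL F G u k) : s.φ (fun l x => a l x * (h l x * k l x)) = c * s.ip h k := by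
  rw [← ip_germ ha H K]
  exact s.congr fun l x => by ring

/-- **multiplier trick**: `⟨g P, Q⟩ = ⟨P, g Q⟩` -/
theorem mult_trick (g P Q : L → X → ℝ) :
    s.ip (fun l x => g l x * P l x) Q = s.ip P (fun l x => g l x * Q l x) :=
  s.congr fun l x => by ring

/-- if `P` is null and `g P`, `Q`, `g Q` are in `L_u` then `g P` is orthogonal to `Q` -/
theorem Null.mult {g P Q : L → X → ℝ} (H : s.Null P) (K : InL F G u (fun l x => g l x * Q l x)) :
    s.ip (fun l x => g l x * P l x) Q = 0 := by
  rw [mult_trick]; exact H.ip K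

/-- if `P` and `g² P` ... : `P` null and `g P ∈ L_u`, `g (g P) ∈ L_u` imply `g P` null -/
theorem Null.mult_self {g P : L → X → ℝ} (H : s.Null P)
    (K : InL F G u (fun l x => g l x * P l x))
    (K2 : InL F G u (fun l x => g l x * (g l x * P l x))) :
    s.Null (fun l x => g l x * P l x) :=
  ⟨K, H.mult K2⟩

end State

/-- the order unit is not null: if all the summands of `u` (up to domination) are null there is
no state -/
theorem State.not_all_null {ι : Type*} [Fintype ι] (s : State F G u) {h : ι → L → X → ℝ} {C : ℝ}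
    (hn : ∀ i, s.Null (h i)) (h1 : SosF F G (fun l x => C * ∑ i, h i l x * h i l x - u l x)) :
    False := by
  have h2 : InI F G u (fun l x => C * ∑ i, h i l x * h i l x) :=
    (InI.sum Finset.univ fun i _ => (hn i).1.mul (hn i).1).smul C
  have h3 := s.mono s.uI h2 h1
  rw [s.one, s.smul, s.sum] at h3
  have h4 : ∑ i, s.φ (fun l x => h i l x * h i l x) = 0 := Finset.sum_eq_zero fun i _ => (hn i).2
  rw [h4, mul_zero] at h3
  linarith

/-- **states detect sums of squares** in the form: if every state at `u` has `0 < φ T`, then `T`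
is a sum of squares -/
theorem sosF_of_states {T : L → X → ℝ} (hu : SosF F G u) (hT : InI F G u T)
    (H : ∀ s : State F G u, s.φ T ≤ 0 → False) : SosF F G T := by
  by_contra hn
  obtain ⟨s, hs⟩ := exists_state hu hT hn
  exact H s hs

/-- **domination from states**: `k² ≤ C P` for some `C` as soon as, at the unit `P + k²`, `φ P = 0`
is impossible -/
theorem dom_of_states {P k : L → X → ℝ} (hP : SosF F G P) (hk : FR k)
    (H : ∀ s : State F G (fun l x => P l x + k l x * k l x), s.φ P ≤ 0 → False) :
    ∃ C : ℝ, 0 ≤ C ∧ SosF F G (fun l x => C * P l x - k l x * k l x) := by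
  by_contra hcon
  push Not at hcon
  have hk2 : SosF F G (fun l x => k l x * k l x) := (SosF.sq hk).congr' fun l x => by ring
  have hu : SosF F G (fun l x => P l x + k l x * k l x) := hP.add hk2
  have hPI : InI F G (fun l x => P l x + k l x * k l x) P :=
    InI.of_sos zero_le_one hu hP (hk2.congr' fun l x => by ring)
  have hkI : InI F G (fun l x => P l x + k l x * k l x) (fun l x => k l x * k l x) :=
    InI.of_sos zero_le_one hu hk2 (hP.congr' fun l x => by ring)
  obtain ⟨s, hs⟩ := exists_state_gen hu hPI (fun c hc hc' => by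
    refine hcon (max (c - 1) 0) (le_max_right _ _) ?_
    have h1 : 0 ≤ max (c - 1) 0 - (c - 1) := sub_nonneg.2 (le_max_left _ _)
    refine (hc'.add (hP.smul h1)).congr' fun l x => ?_
    ring)
  exact H s hs

end Vale.Agent.P256.H576
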